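import Vale.Agent.P333.H984.Tg.Str

set_option autoImplicit false

/-!
P333: checks of steps of the greedy algorithm.
-/

namespace Vale.Agent.P333.H984.Tg

open Vale.Agent.P333.H984.Num

theorem ok2 : stepOk s8 s9 852
    [m1, m0, s0, s1, s2, s3, s4, s5, s10] = true := by
  decide +kernel

theorem e2 : mrg s8 s9 852 = m2 := by
  decide +kernel

theorem ok5 : stepOk s2 s3 844
    [m4, m3, m1, m0, s4, s5] = true := by
  decide +kernel

theorem e5 : mrg s2 s3 844 = m5 := by
  decide +kernel

theorem ok7 : stepOk s4 s5 841
    [m6, m5, m3, m1] = true := by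
  decide +kernel

theorem e7 : mrg s4 s5 841 = m7 := by
  decide +kernel


end Vale.Agent.P333.H984.Tg
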