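import Vale.Agent.P333.H984.Tg.Str

set_option autoImplicit false

/-!
P333: checks of steps of the greedy algorithm.
-/

namespace Vale.Agent.P333.H984.Tg

open Vale.Agent.P333.H984.Num

theorem ok0 : stepOk s11 s12 1245
    [s0, s1, s2, s3, s4, s5, s6, s7, s8, s9, s10] = true := by
  decide +kernel

theorem e0 : mrg s11 s12 1245 = m0 := by
  decide +kernel

theorem ok1 : stepOk s6 s7 1243
    [m0, s0, s1, s2, s3, s4, s5, s8, s9, s10] = true := by
  decide +kernel

theorem e1 : mrg s6 s7 1243 = m1 := by
  decide +kernel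

theorem ok3 : stepOk s0 s1 850
    [m2, m1, m0, s2, s3, s4, s5, s10] = true := by
  decide +kernel

theorem e3 : mrg s0 s1 850 = m3 := by
  decide +kernel

theorem ok4 : stepOk m2 s10 846
    [m3, m1, m0, s2, s3, s4, s5] = true := by
  decide +kernel

theorem e4 : mrg m2 s10 846 = m4 := by
  decide +kernel


end Vale.Agent.P333.H984.Tg
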