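import Vale.Agent.P333.H984.Tg.St0
import Vale.Agent.P333.H984.Tg.St1
import Vale.Agent.P333.H984.Tg.St2

set_option autoImplicit false

/-!
P333: a family for which every greedy superstring is more than twice as long as a shortest one.
-/

namespace Vale.Agent.P333.H984.Tg

open Vale.Agent.P333.H984.Num

theorem all9 : All
    [m8, m7, m6, m1] 6956 :=
  all_end (by decide +kernel) (by decide +kernel)

theorem all8 : All
    [m7, m6, m5, m3, m1]
    6956 := by
  have h : All
      (m5 :: m3 :: [m7, m6, m1])
      6956 := by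
    refine all_step ok8 ?_
    rw [e8]
    exact all9
  refine h.perm ?_
  exact (List.perm_middle (l₁ := [m7, m6])
      (a := m5)
      (l₂ := [m3, m1])).trans
      ((List.perm_middle (l₁ := [m7, m6])
      (a := m3)
      (l₂ := [m1])).cons m5)

theorem all7 : All
    [m6, m5, m3, m1, s4, s5]
    6956 := by
  have h : All
      (s4 :: s5 :: [m6, m5, m3, m1])
      6956 := by
    refine all_step ok7 ?_
    rw [e7]
    exact all8
  refine h.perm ?_
  exact (List.perm_middle (l₁ := [m6, m5, m3, m1])
      (a := s4)
      (l₂ := [s5])).trans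
      ((List.perm_middle (l₁ := [m6, m5, m3, m1])
      (a := s5)
      (l₂ := [])).cons s4)

theorem all6 : All
    [m5, m4, m3, m1, m0, s4, s5]
    6956 := by
  have h : All
      (m4 :: m0 :: [m5, m3, m1, s4, s5])
      6956 := by
    refine all_step ok6 ?_
    rw [e6]
    exact all7
  refine h.perm ?_
  exact (List.perm_middle (l₁ := [m5])
      (a := m4)
      (l₂ := [m3, m1, m0, s4, s5])).trans
      ((List.perm_middle (l₁ := [m5, m3, m1])
      (a := m0)
      (l₂ := [s4, s5])).cons m4)

theorem all5 : All
    [m4, m3, m1, m0, s2, s3, s4, s5]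
    6956 := by
  have h : All
      (s2 :: s3 :: [m4, m3, m1, m0, s4, s5])
      6956 := by
    refine all_step ok5 ?_
    rw [e5]
    exact all6
  refine h.perm ?_
  exact (List.perm_middle (l₁ := [m4, m3, m1, m0])
      (a := s2)
      (l₂ := [s3, s4, s5])).trans
      ((List.perm_middle (l₁ := [m4, m3, m1, m0])
      (a := s3)
      (l₂ := [s4, s5])).cons s2)

theorem all4 : All
    [m3, m2, m1, m0, s2, s3, s4, s5, s10]
    6956 := by
  have h : All
      (m2 :: s10 :: [m3, m1, m0, s2, s3, s4, s5])
      6956 := by
    refine all_step ok4 ?_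
    rw [e4]
    exact all5
  refine h.perm ?_
  exact (List.perm_middle (l₁ := [m3])
      (a := m2)
      (l₂ := [m1, m0, s2, s3, s4, s5, s10])).trans
      ((List.perm_middle (l₁ := [m3, m1, m0, s2, s3, s4, s5])
      (a := s10)
      (l₂ := [])).cons m2)

theorem all3 : All
    [m2, m1, m0, s0, s1, s2, s3, s4, s5, s10]
    6956 := by
  have h : All
      (s0 :: s1 :: [m2, m1, m0, s2, s3, s4, s5, s10])
      6956 := by
    refine all_step ok3 ?_
    rw [e3]
    exact all4
  refine h.perm ?_
  exact (List.perm_middle (l₁ := [m2, m1, m0])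
      (a := s0)
      (l₂ := [s1, s2, s3, s4, s5, s10])).trans
      ((List.perm_middle (l₁ := [m2, m1, m0])
      (a := s1)
      (l₂ := [s2, s3, s4, s5, s10])).cons s0)

theorem all2 : All
    [m1, m0, s0, s1, s2, s3, s4, s5, s8, s9, s10]
    6956 := by
  have h : All
      (s8 :: s9 :: [m1, m0, s0, s1, s2, s3, s4, s5, s10])
      6956 := by
    refine all_step ok2 ?_
    rw [e2]
    exact all3
  refine h.perm ?_
  exact (List.perm_middle (l₁ := [m1, m0, s0, s1, s2, s3, s4, s5])
      (a := s8)
      (l₂ := [s9, s10])).trans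
      ((List.perm_middle (l₁ := [m1, m0, s0, s1, s2, s3, s4, s5])
      (a := s9)
      (l₂ := [s10])).cons s8)

theorem all1 : All
    [m0, s0, s1, s2, s3, s4, s5, s6, s7, s8, s9, s10]
    6956 := by
  have h : All
      (s6 :: s7 :: [m0, s0, s1, s2, s3, s4, s5, s8, s9, s10])
      6956 := by
    refine all_step ok1 ?_
    rw [e1]
    exact all2
  refine h.perm ?_
  exact (List.perm_middle (l₁ := [m0, s0, s1, s2, s3, s4, s5])
      (a := s6)
      (l₂ := [s7, s8, s9, s10])).trans
      ((List.perm_middle (l₁ := [m0, s0, s1, s2, s3, s4, s5])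
      (a := s7)
      (l₂ := [s8, s9, s10])).cons s6)

theorem all0 : All
    [s0, s1, s2, s3, s4, s5, s6, s7, s8, s9, s10, s11, s12]
    6956 := by
  have h : All
      (s11 :: s12 :: [s0, s1, s2, s3, s4, s5, s6, s7, s8, s9, s10])
      6956 := by
    refine all_step ok0 ?_
    rw [e0]
    exact all1
  refine h.perm ?_
  exact (List.perm_middle (l₁ := [s0, s1, s2, s3, s4, s5, s6, s7, s8, s9, s10])
      (a := s11)
      (l₂ := [s12])).trans
      ((List.perm_middle (l₁ := [s0, s1, s2, s3, s4, s5, s6, s7, s8, s9, s10])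
      (a := s12)
      (l₂ := [])).cons s11)

theorem reduced : Greedy.Reduced (fam.map str) (fam.map str) :=
  reduced_of (by decide +kernel) (by decide +kernel) (by decide +kernel)

theorem opt_le : opt (fam.map str) ≤ 3386 :=
  opt_le_of (L := fam) (q := sup) (by decide +kernel) (by decide +kernel)

theorem outs : (∃ t, Greedy.Output (fam.map str) t) ∧
    ∀ t, Greedy.Output (fam.map str) t → t.length = 6956 :=
  outputs (by simp [fam]) reduced all0

/-- **Every output of the greedy algorithm is more than twice as long as a shortest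
superstring.** -/
theorem main : ∃ S : List (List ℕ), Greedy.Reduced S S ∧ (∃ t, Greedy.Output S t) ∧
    ∀ t, Greedy.Output S t → 2 * opt S < t.length ∧ 2054 * opt S ≤ 1000 * t.length := by
  refine ⟨fam.map str, reduced, outs.1, fun t ht => ?_⟩
  have h1 := outs.2 t ht
  have h2 := opt_le
  omega

end Vale.Agent.P333.H984.Tg
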