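import Vale.Agent.P333.H984.Tg.Str

set_option autoImplicit false

/-!
P333: checks of steps of the greedy algorithm.
-/

namespace Vale.Agent.P333.H984.Tg

open Vale.Agent.P333.H984.Num

theorem ok6 : stepOk m4 m0 843
    [m5, m3, m1, s4, s5] = true := by
  decide +kernel

theorem e6 : mrg m4 m0 843 = m6 := by
  decide +kernel

theorem ok8 : stepOk m5 m3 204
    [m7, m6, m1] = true := by
  decide +kernel

theorem e8 : mrg m5 m3 204 = m8 := by
  decide +kernel


end Vale.Agent.P333.H984.Tg
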